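import Crest.Agent.R246.H1.Jet

/-!
# Row 246, block H1: calculus of the signed distance function `ψ` (may be imported by H2, P)

`ν = gradient ψ`, `H = hess ψ`.  `dv v f` is the directional derivative; `Eik f x`: `f` is smooth and solves
the eikonal equation near `x`.
-/

set_option autoImplicit false
set_option linter.unusedSectionVars false

open MeasureTheory Metric Filter Topology Set Module Asymptotics
open scoped RealInnerProductSpace ENNReal ContDiff Real

noncomputable section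

namespace Crest.Agent.R246.H1

variable {E : Type} [NormedAddCommGroup E] [InnerProductSpace ℝ E] [FiniteDimensional ℝ E]

/-- directional derivative -/
def dv (v : E) (f : E → ℝ) : E → ℝ := fun x => fderiv ℝ f x v

/-- smooth solution of the eikonal equation near `x` -/
def Eik (f : E → ℝ) (x : E) : Prop := ∀ᶠ y in 𝓝 x, ContDiffAt ℝ ∞ f y ∧ ‖gradient f y‖ = 1

/-! ### general calculus -/

theorem two_le_infty : (2 : WithTop ℕ∞) ≤ ((⊤ : ℕ∞) : WithTop ℕ∞) := WithTop.coe_le_coe.2 (le_top (a := (2 : ℕ∞)))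

theorem inner_gradient (f : E → ℝ) (x v : E) : ⟪gradient f x, v⟫ = dv v f x := by
  exact inner_gradient_left

theorem contDiffAt_gradient' {f : E → ℝ} {x : E} {m n : WithTop ℕ∞} (hf : ContDiffAt ℝ n f x) (hmn : m + 1 ≤ n) :
    ContDiffAt ℝ m (gradient f) x :=
  (InnerProductSpace.toDual ℝ E).symm.contDiff.contDiffAt.comp x (hf.fderiv_right hmn)

theorem differentiableAt_gradient {f : E → ℝ} {x : E} (hf : ContDiffAt ℝ 2 f x) :
    DifferentiableAt ℝ (gradient f) x :=
  (contDiffAt_gradient' (m := 1) hf le_rfl).differentiableAt one_ne_zero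

theorem hasFDerivAt_gradient {f : E → ℝ} {x : E} (hf : ContDiffAt ℝ 2 f x) :
    HasFDerivAt (gradient f) (hess f x) x := (differentiableAt_gradient hf).hasFDerivAt

theorem contDiffAt_gradient {f : E → ℝ} {x : E} (hf : ContDiffAt ℝ ∞ f x) : ContDiffAt ℝ ∞ (gradient f) x := by
  exact contDiffAt_gradient' hf le_rfl

theorem contDiffAt_hess {f : E → ℝ} {x : E} (hf : ContDiffAt ℝ ∞ f x) : ContDiffAt ℝ ∞ (hess f) x := by
  exact (contDiffAt_gradient hf).fderiv_right le_rfl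

theorem contDiffAt_dv {f : E → ℝ} {x : E} (hf : ContDiffAt ℝ ∞ f x) (v : E) : ContDiffAt ℝ ∞ (dv v f) x := by
  exact (hf.fderiv_right le_rfl).clm_apply contDiffAt_const

theorem inner_hess {f : E → ℝ} {x : E} (hf : ContDiffAt ℝ 2 f x) (v w : E) :
    ⟪hess f x v, w⟫ = dv v (dv w f) x := by
  have h := (hasFDerivAt_gradient hf).inner ℝ (hasFDerivAt_const w x)
  have e : dv w f = fun y => ⟪gradient f y, w⟫ := funext fun y => (inner_gradient f y w).symm
  rw [e, dv, h.fderiv]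
  simp

theorem dv_comm {f : E → ℝ} {x : E} (hf : ContDiffAt ℝ 2 f x) (v w : E) :
    dv v (dv w f) x = dv w (dv v f) x := by
  have hd : DifferentiableAt ℝ (fderiv ℝ f) x := (hf.fderiv_right (m := 1) le_rfl).differentiableAt one_ne_zero
  have e : ∀ v w : E, dv v (dv w f) x = fderiv ℝ (fderiv ℝ f) x v w := fun v w => by
    have := (hd.hasFDerivAt.clm_apply (hasFDerivAt_const w x)).fderiv
    unfold dv
    rw [this]
    simp
  rw [e, e]
  exact hf.isSymmSndFDerivAt (by simp) v w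

theorem hess_symm {f : E → ℝ} {x : E} (hf : ContDiffAt ℝ 2 f x) (v w : E) :
    ⟪hess f x v, w⟫ = ⟪v, hess f x w⟫ := by
  rw [real_inner_comm (hess f x w), inner_hess hf, inner_hess hf, dv_comm hf]

theorem gradient_congr {f g : E → ℝ} {x : E} (h : f =ᶠ[𝓝 x] g) : gradient f =ᶠ[𝓝 x] gradient g := by
  exact h.gradient

theorem hess_congr {f g : E → ℝ} {x : E} (h : f =ᶠ[𝓝 x] g) : hess f =ᶠ[𝓝 x] hess g := by
  exact h.gradient.fderiv

/-- `∇ ⟪a, ∇f⟫ = H a` -/
theorem hasGradientAt_inner_gradient {f : E → ℝ} {x : E} (hf : ContDiffAt ℝ 2 f x) (a : E) :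
    HasGradientAt (fun y => ⟪a, gradient f y⟫) (hess f x a) x := by
  have h := (hasFDerivAt_const a x).inner ℝ (hasFDerivAt_gradient hf)
  rw [hasGradientAt_iff_hasFDerivAt]
  refine h.congr_fderiv (ContinuousLinearMap.ext fun v => ?_)
  simp [hess_symm hf]

theorem eventually_two {f : E → ℝ} {x : E} (hf : ContDiffAt ℝ ∞ f x) : ∀ᶠ y in 𝓝 x, ContDiffAt ℝ 2 f y :=
  (hf.of_le two_le_infty).eventually (by simp)

theorem hasFDerivAt_hess {f : E → ℝ} {x : E} (hf : ContDiffAt ℝ ∞ f x) :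
    HasFDerivAt (hess f) (fderiv ℝ (hess f) x) x :=
  ((contDiffAt_hess hf).differentiableAt (by simp)).hasFDerivAt

theorem hasFDerivAt_hess_apply {f : E → ℝ} {x : E} (hf : ContDiffAt ℝ ∞ f x) (v : E) :
    HasFDerivAt (fun y => hess f y v) ((fderiv ℝ (hess f) x).flip v) x :=
  ((hasFDerivAt_hess hf).clm_apply (hasFDerivAt_const v x)).congr_fderiv (by simp)

/-- the third derivative is symmetric -/
theorem third_symm {f : E → ℝ} {x : E} (hf : ContDiffAt ℝ ∞ f x) (u v w : E) :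
    fderiv ℝ (hess f) x u v = fderiv ℝ (hess f) x v u ∧
      ⟪fderiv ℝ (hess f) x u v, w⟫ = ⟪v, fderiv ℝ (hess f) x u w⟫ := by
  refine ⟨((contDiffAt_gradient hf).of_le two_le_infty).isSymmSndFDerivAt (by simp) u v, ?_⟩
  have h1 := (hasFDerivAt_hess_apply hf v).inner ℝ (hasFDerivAt_const w x)
  have h2 := (hasFDerivAt_const v x).inner ℝ (hasFDerivAt_hess_apply hf w)
  have h3 := h1.unique (h2.congr_of_eventuallyEq ((eventually_two hf).mono fun y hy => hess_symm hy v w))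
  simpa using congrArg (fun L : E →L[ℝ] ℝ => L u) h3

theorem dv_lap_eq {f : E → ℝ} {x : E} (hf : ContDiffAt ℝ ∞ f x) (e : E) :
    dv e (lap f) x = trc (fderiv ℝ (hess f) x e) := by
  let τ : (E →L[ℝ] E) →L[ℝ] ℝ :=
    LinearMap.toContinuousLinearMap ((LinearMap.trace ℝ E).comp (ContinuousLinearMap.coeLM ℝ))
  have h : HasFDerivAt (lap f) (τ ∘L fderiv ℝ (hess f) x) x := τ.hasFDerivAt.comp x (hasFDerivAt_hess hf)
  rw [dv, h.fderiv]
  rfl

theorem contDiffAt_lap {f : E → ℝ} {x : E} (hf : ContDiffAt ℝ ∞ f x) : ContDiffAt ℝ ∞ (lap f) x := by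
  let τ : (E →L[ℝ] E) →L[ℝ] ℝ :=
    LinearMap.toContinuousLinearMap ((LinearMap.trace ℝ E).comp (ContinuousLinearMap.coeLM ℝ))
  exact τ.contDiff.contDiffAt.comp x (contDiffAt_hess hf)

theorem dv_eq (f : E → ℝ) (a : E) : dv a f = fun y => ⟪a, gradient f y⟫ :=
  funext fun y => by rw [real_inner_comm, inner_gradient]

theorem gradient_dv {f : E → ℝ} {x : E} (hf : ContDiffAt ℝ 2 f x) (a : E) : gradient (dv a f) x = hess f x a := by
  rw [dv_eq]
  exact (hasGradientAt_inner_gradient hf a).gradient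

theorem hess_dv {f : E → ℝ} {x : E} (hf : ContDiffAt ℝ ∞ f x) (a : E) :
    hess (dv a f) x = fderiv ℝ (hess f) x a := by
  have h : gradient (dv a f) =ᶠ[𝓝 x] fun y => hess f y a := (eventually_two hf).mono fun y hy => gradient_dv hy a
  rw [hess, h.fderiv_eq, (hasFDerivAt_hess_apply hf a).fderiv]
  ext v
  exact (third_symm hf v a v).1

theorem lap_dv {f : E → ℝ} {x : E} (hf : ContDiffAt ℝ ∞ f x) (a : E) : lap (dv a f) x = dv a (lap f) x := by
  rw [dv_lap_eq hf, lap, hess_dv hf]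

/-! ### the eikonal equation -/

namespace Eik
variable {f : E → ℝ} {x : E}

theorem eventually (h : Eik f x) : ∀ᶠ y in 𝓝 x, Eik f y := eventually_eventually_nhds.2 h
theorem contDiffAt (h : Eik f x) : ContDiffAt ℝ ∞ f x := h.self_of_nhds.1
theorem contDiffAt_two (h : Eik f x) : ContDiffAt ℝ 2 f x := h.contDiffAt.of_le two_le_infty
theorem norm_grad (h : Eik f x) : ‖gradient f x‖ = 1 := h.self_of_nhds.2

theorem inner_hess_grad (h : Eik f x) (v : E) : ⟪hess f x v, gradient f x⟫ = 0 := by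
  have h1 := (hasFDerivAt_gradient h.contDiffAt_two).inner ℝ (hasFDerivAt_gradient h.contDiffAt_two)
  have h2 : HasFDerivAt (fun y => ⟪gradient f y, gradient f y⟫) (0 : E →L[ℝ] ℝ) x :=
    (hasFDerivAt_const (1 : ℝ) x).congr_of_eventuallyEq (Eventually.mono h fun y hy => by
      simp only [real_inner_self_eq_norm_sq, hy.2, one_pow])
  have h3 := congrArg (fun L : E →L[ℝ] ℝ => L v) (h1.unique h2)
  simp only [ContinuousLinearMap.comp_apply, ContinuousLinearMap.prod_apply, fderivInnerCLM_apply,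
    zero_apply, real_inner_comm (hess f x v)] at h3
  linarith

/-- `H ν = 0` -/
theorem hess_grad (h : Eik f x) : hess f x (gradient f x) = 0 := by
  refine ext_inner_left ℝ fun v => ?_
  rw [← hess_symm h.contDiffAt_two, h.inner_hess_grad, inner_zero_right]

/-- `(D_v H) ν = - H² v` -/
theorem third_grad (h : Eik f x) (v : E) :
    fderiv ℝ (hess f) x v (gradient f x) = -hess f x (hess f x v) := by
  have h1 := (hasFDerivAt_hess h.contDiffAt).clm_apply (hasFDerivAt_gradient h.contDiffAt_two)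
  have h2 : HasFDerivAt (fun y => hess f y (gradient f y)) (0 : E →L[ℝ] E) x :=
    (hasFDerivAt_const (0 : E) x).congr_of_eventuallyEq (h.eventually.mono fun y hy => hy.hess_grad)
  have h3 := congrArg (fun L : E →L[ℝ] E => L v) (h1.unique h2)
  simp only [add_apply, ContinuousLinearMap.comp_apply, ContinuousLinearMap.flip_apply, zero_apply] at h3
  exact eq_neg_of_add_eq_zero_right h3

/-- `∂_ν lap = - |H|²` -/
theorem dv_lap (h : Eik f x) : dv (gradient f x) (lap f) x = -trc (hess f x ∘L hess f x) := by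
  rw [dv_lap_eq h.contDiffAt, ← neg_one_mul, ← C1.trc_smul]
  congr 1
  ext v
  rw [(third_symm h.contDiffAt _ v v).1, h.third_grad]
  simp

end Eik

/-! ### smooth minimal cones -/

section smc
variable {C : Set E} {ψ : E → ℝ}

theorem mem_iff (h : SMC C ψ) (y : E) : y ∈ C ↔ ψ y = 0 := by
  rw [h.closed.mem_iff_infDist_zero ⟨0, h.zero_mem⟩, ← h.abs_eq, abs_eq_zero]

theorem eik (h : SMC C ψ) {x : E} (hx : x ∈ C) (hx0 : x ≠ 0) : Eik ψ x := by
  obtain ⟨U, hU, hCU, hs, hg⟩ := h.smooth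
  filter_upwards [hU.mem_nhds (hCU ⟨hx, hx0⟩)] with y hy using ⟨hs.contDiffAt (hU.mem_nhds hy), hg y hy⟩

theorem gradient_smul (h : SMC C ψ) {t : ℝ} (ht : 0 < t) (y : E) : gradient ψ (t • y) = gradient ψ y := by
  have h1 := fderiv_comp_smul (𝕜 := ℝ) (f := ψ) (x := y) t
  have h2 : (fun z => ψ (t • z)) = t • ψ := funext fun z => h.homog t ht z
  rw [h2, fderiv_const_smul_field] at h1
  have h3 : fderiv ℝ ψ y = fderiv ℝ ψ (t • y) := smul_right_injective _ ht.ne' h1
  rw [gradient, gradient, h3]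

theorem hess_smul (h : SMC C ψ) {t : ℝ} (ht : 0 < t) (y : E) : hess ψ (t • y) = t⁻¹ • hess ψ y := by
  have h1 := fderiv_comp_smul (𝕜 := ℝ) (f := gradient ψ) (x := y) t
  have h2 : (fun z => gradient ψ (t • z)) = gradient ψ := funext fun z => gradient_smul h ht z
  rw [h2] at h1
  rw [hess, hess, h1, inv_smul_smul₀ ht.ne']

theorem hom0_A2 (h : SMC C ψ) : Hom0 (A2 ψ) := by
  intro t ht y
  simp only [A2, hess_smul h ht, ContinuousLinearMap.smul_comp, ContinuousLinearMap.comp_smul, C1.trc_smul,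
    norm_smul, Real.norm_of_nonneg ht.le]
  field_simp

theorem continuousOn_gradient (h : SMC C ψ) : ContinuousOn (gradient ψ) (C \ {0}) := by
  exact fun x hx => (contDiffAt_gradient (eik h hx.1 hx.2).contDiffAt).continuousAt.continuousWithinAt

theorem continuousOn_A2 (h : SMC C ψ) : ContinuousOn (A2 ψ) (C \ {0}) := by
  intro x hx
  have h1 := (contDiffAt_hess (eik h hx.1 hx.2).contDiffAt).continuousAt
  exact ((continuous_norm.pow 2).continuousAt.mul
    (C1.continuous_trc.continuousAt.comp (h1.clm_comp h1))).continuousWithinAt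

/-- Euler: `⟪ν x, x⟫ = 0` on the cone -/
theorem inner_grad_self (h : SMC C ψ) {x : E} (hx : x ∈ C) : ⟪gradient ψ x, x⟫ = 0 := by
  by_cases hd : DifferentiableAt ℝ ψ x
  · have h1 : HasDerivAt (fun t : ℝ => t • x) x 1 := by simpa using (hasDerivAt_id (1 : ℝ)).smul_const x
    have h2 : HasDerivAt (fun t : ℝ => ψ (t • x)) (fderiv ℝ ψ x x) 1 :=
      HasFDerivAt.comp_hasDerivAt_of_eq (1 : ℝ) hd.hasFDerivAt h1 (by simp)
    have h3 : HasDerivAt (fun t : ℝ => ψ (t • x)) 0 1 :=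
      (hasDerivAt_const (1 : ℝ) (0 : ℝ)).congr_of_eventuallyEq ((lt_mem_nhds one_pos).mono fun t ht =>
        (mem_iff h _).1 (h.smul_mem t ht x hx))
    rw [inner_gradient_left, h2.unique h3]
  · rw [gradient_eq_zero_of_not_differentiableAt hd, inner_zero_left]

theorem hess_self (h : SMC C ψ) {x : E} (hx : x ∈ C) (hx0 : x ≠ 0) : hess ψ x x = 0 := by
  have h1 : HasDerivAt (fun t : ℝ => t • x) x 1 := by simpa using (hasDerivAt_id (1 : ℝ)).smul_const x
  have h2 : HasDerivAt (fun t : ℝ => gradient ψ (t • x)) (hess ψ x x) 1 :=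
    HasFDerivAt.comp_hasDerivAt_of_eq (1 : ℝ) (hasFDerivAt_gradient (eik h hx hx0).contDiffAt_two) h1 (by simp)
  have h3 : HasDerivAt (fun t : ℝ => gradient ψ (t • x)) 0 1 :=
    (hasDerivAt_const (1 : ℝ) (gradient ψ x)).congr_of_eventuallyEq ((lt_mem_nhds one_pos).mono fun t ht =>
      gradient_smul h ht x)
  exact h2.unique h3

/-- the nearest point projection -/
theorem proj_mem (h : SMC C ψ) {z : E} (hz : Eik ψ z) : z - ψ z • gradient ψ z ∈ C := by
  obtain ⟨y, hy, hd⟩ := h.closed.exists_infDist_eq_dist ⟨0, h.zero_mem⟩ z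
  rw [← h.abs_eq, dist_eq_norm] at hd
  have hD : HasDerivAt (fun t : ℝ => z + t • (y - z)) (y - z) 0 := by
    simpa using ((hasDerivAt_id (0 : ℝ)).smul_const (y - z)).const_add z
  have h2 : HasDerivAt (fun t : ℝ => ψ z * ψ (z + t • (y - z))) (ψ z * fderiv ℝ ψ z (y - z)) 0 :=
    (HasFDerivAt.comp_hasDerivAt_of_eq (0 : ℝ)
      (hz.contDiffAt.differentiableAt (by simp)).hasFDerivAt hD (by simp)).const_mul _
  have h3 : ψ z * fderiv ℝ ψ z (y - z) ≤ -ψ z ^ 2 := by
    refine le_of_tendsto h2.tendsto_slope_zero_right ?_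
    filter_upwards [Ioo_mem_nhdsGT one_pos] with t ht
    have a1 : |ψ (z + t • (y - z))| ≤ (1 - t) * |ψ z| := by
      rw [h.abs_eq, hd]
      refine (infDist_le_dist_of_mem hy).trans (le_of_eq ?_)
      have : z + t • (y - z) - y = (1 - t) • (z - y) := by module
      rw [dist_eq_norm, this, norm_smul, Real.norm_of_nonneg (by linarith [ht.2])]
    have a2 : ψ z * ψ (z + t • (y - z)) ≤ (1 - t) * ψ z ^ 2 := by
      refine (le_abs_self _).trans ?_
      rw [abs_mul, ← sq_abs]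
      nlinarith [abs_nonneg (ψ z)]
    simp only [zero_add, zero_smul, add_zero, smul_eq_mul]
    rw [inv_mul_le_iff₀ ht.1]
    nlinarith
  have h4 : ‖(y - z) + ψ z • gradient ψ z‖ ^ 2 ≤ 0 := by
    rw [norm_add_sq_real, inner_smul_right, real_inner_comm, inner_gradient_left, norm_smul, hz.norm_grad,
      norm_sub_rev, ← hd, mul_one, Real.norm_eq_abs, sq_abs]
    linarith
  have h5 : (y - z) + ψ z • gradient ψ z = 0 := norm_eq_zero.1 (pow_eq_zero_iff two_ne_zero |>.1
    (le_antisymm h4 (sq_nonneg _)))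
  have h6 : z - ψ z • gradient ψ z = y := by
    rw [← sub_eq_zero, ← neg_eq_zero, ← h5]; abel
  rwa [h6]

/-- curves in `C` with prescribed tangent -/
theorem exists_curve (h : SMC C ψ) {x : E} (hx : x ∈ C) (hx0 : x ≠ 0) {e : E} (he : ⟪gradient ψ x, e⟫ = 0) :
    ∃ (y : ℝ → E) (M : ℝ), ∀ᶠ t in 𝓝 (0 : ℝ), y t ∈ C ∧ ‖y t - (x + t • e)‖ ≤ M * t ^ 2 := by
  have hE := eik h hx hx0
  have hl : Tendsto (fun t : ℝ => x + t • e) (𝓝 0) (𝓝 x) := by
    have : Continuous fun t : ℝ => x + t • e := by fun_prop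
    simpa using this.tendsto 0
  have hJ := (IsLittleO.comp_tendsto (Jet.of_contDiffAt hE.contDiffAt_two) hl).bound one_pos
  refine ⟨fun t => x + t • e - ψ (x + t • e) • gradient ψ (x + t • e), ‖e‖ ^ 2 + |⟪hess ψ x e, e⟫| / 2, ?_⟩
  filter_upwards [hl.eventually hE.eventually, hJ] with t h1 h2
  refine ⟨proj_mem h h1, ?_⟩
  simp only [Function.comp, add_sub_cancel_left, (mem_iff h x).1 hx, sub_zero, inner_smul_right, he, mul_zero,
    map_smul, real_inner_smul_left, Real.norm_eq_abs, one_mul, norm_smul, mul_pow, sq_abs, abs_pow,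
    abs_mul, abs_norm] at h2
  rw [sub_sub_cancel_left, norm_neg, norm_smul, h1.norm_grad, mul_one, Real.norm_eq_abs]
  have h3 : |t * (t * ⟪hess ψ x e, e⟫) / 2| = t ^ 2 * (|⟪hess ψ x e, e⟫| / 2) := by
    rw [← mul_assoc, ← sq, abs_div, abs_mul, abs_pow, sq_abs, abs_two, mul_div_assoc]
  have h4 := abs_sub_abs_le_abs_sub (ψ (x + t • e)) (t * (t * ⟪hess ψ x e, e⟫) / 2)
  linarith

theorem exists_curve' (h : SMC C ψ) {x : E} (hx : x ∈ C) (hx0 : x ≠ 0) {e : E} (he : ⟪gradient ψ x, e⟫ = 0) :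
    ∃ u : ℝ → E, Tendsto (fun t => x + t • u t) (𝓝[>] 0) (𝓝[C] x) ∧ Tendsto u (𝓝[>] 0) (𝓝 e) := by
  obtain ⟨y, M, hy⟩ := exists_curve h hx hx0 he
  have hy' := hy.filter_mono (nhdsWithin_le_nhds (s := Ioi 0))
  have hu : Tendsto (fun t => t⁻¹ • (y t - x)) (𝓝[>] 0) (𝓝 e) := by
    rw [tendsto_iff_norm_sub_tendsto_zero]
    have h0 : Tendsto (fun t : ℝ => M * t) (𝓝[>] 0) (𝓝 0) := by
      have : Continuous fun t : ℝ => M * t := by fun_prop
      simpa using (this.tendsto 0).mono_left nhdsWithin_le_nhds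
    refine squeeze_zero' (Eventually.of_forall fun _ => norm_nonneg _) ?_ h0
    filter_upwards [hy', self_mem_nhdsWithin] with t h1 (ht : 0 < t)
    have e1 : t⁻¹ • (y t - x) - e = t⁻¹ • (y t - (x + t • e)) := by
      rw [← sub_sub, smul_sub t⁻¹ _ (t • e), inv_smul_smul₀ ht.ne']
    rw [e1, norm_smul, norm_inv, Real.norm_of_nonneg ht.le, inv_mul_le_iff₀ ht]
    linarith [h1.2]
  refine ⟨_, tendsto_nhdsWithin_iff.2 ⟨?_, ?_⟩, hu⟩
  · simpa using ((tendsto_id.mono_left (nhdsWithin_le_nhds (s := Ioi (0 : ℝ)))).smul hu).const_add x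
  · filter_upwards [hy', self_mem_nhdsWithin] with t h1 (ht : 0 < t)
    rw [smul_inv_smul₀ ht.ne', add_sub_cancel]
    exact h1.1

theorem first_order_aux (h : SMC C ψ) {x : E} (hx : x ∈ C) (hx0 : x ≠ 0) {G : E → ℝ} {p : E}
    (hG : HasGradientAt G p x) (hmin : ∀ᶠ y in 𝓝[C] x, G x ≤ G y) {e : E} (he : ⟪gradient ψ x, e⟫ = 0) :
    0 ≤ ⟪p, e⟫ := by
  obtain ⟨u, h1, h2⟩ := exists_curve' h hx hx0 he
  have h3 := (hasGradientAt_iff_isLittleO.1 hG).comp_tendsto (h1.mono_right nhdsWithin_le_nhds)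
  have h4 : (fun t => x + t • u t - x) =O[𝓝[>] 0] fun t : ℝ => t := by
    simp only [add_sub_cancel_left]
    simpa using (isBigO_refl (fun t : ℝ => t) _).smul (h2.isBigO_one ℝ)
  have h5 := (h3.trans_isBigO h4).tendsto_div_nhds_zero.add (tendsto_const_nhds (x := p) |>.inner (𝕜 := ℝ) h2)
  rw [zero_add] at h5
  refine ge_of_tendsto h5 ?_
  filter_upwards [h1.eventually hmin, self_mem_nhdsWithin] with t ht (ht0 : 0 < t)
  simp only [Function.comp, add_sub_cancel_left, inner_smul_right]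
  rw [sub_div, mul_div_cancel_left₀ _ ht0.ne', sub_add_cancel]
  exact div_nonneg (sub_nonneg.2 ht) ht0.le

/-- first order condition for a minimum on `C` -/
theorem first_order (h : SMC C ψ) {x : E} (hx : x ∈ C) (hx0 : x ≠ 0) {G : E → ℝ} {p : E}
    (hG : HasGradientAt G p x) (hmin : ∀ᶠ y in 𝓝[C] x, G x ≤ G y) : p = ⟪gradient ψ x, p⟫ • gradient ψ x := by
  have hn : ⟪gradient ψ x, gradient ψ x⟫ = 1 := by
    rw [real_inner_self_eq_norm_sq, (eik h hx hx0).norm_grad, one_pow]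
  set e := p - ⟪gradient ψ x, p⟫ • gradient ψ x with he
  have h1 : ⟪gradient ψ x, e⟫ = 0 := by rw [he, inner_sub_right, inner_smul_right, hn, mul_one, sub_self]
  have h2 := first_order_aux h hx hx0 hG hmin (e := -e) (by rw [inner_neg_right, h1, neg_zero])
  have h3 : ⟪p, e⟫ = ⟪e, e⟫ := by
    conv_rhs => rw [he, inner_sub_left, ← he, real_inner_smul_left, h1, mul_zero, sub_zero]
  rw [inner_neg_right, h3, neg_nonneg] at h2
  exact sub_eq_zero.1 (inner_self_eq_zero.1 (le_antisymm h2 real_inner_self_nonneg))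

/-- second order condition for a minimum on `C` -/
theorem second_order (h : SMC C ψ) {x : E} (hx : x ∈ C) (hx0 : x ≠ 0) {G : E → ℝ} {Q : E →L[ℝ] E}
    (hG : Jet (𝓝[C] x) x G 0 Q) (hmin : ∀ᶠ y in 𝓝[C] x, G x ≤ G y) {e : E} (he : ⟪gradient ψ x, e⟫ = 0) :
    0 ≤ ⟪Q e, e⟫ := by
  obtain ⟨u, h1, h2⟩ := exists_curve' h hx hx0 he
  have h3 := IsLittleO.comp_tendsto hG h1
  have h4 : (fun t => ‖x + t • u t - x‖ ^ 2) =O[𝓝[>] 0] fun t : ℝ => t ^ 2 := by
    simp only [add_sub_cancel_left]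
    have := ((isBigO_refl (fun t : ℝ => t) _).smul (h2.isBigO_one ℝ)).norm_left.pow 2
    simpa using this
  have h5 := (h3.trans_isBigO h4).tendsto_div_nhds_zero.add
    ((((Q.continuous.tendsto e).comp h2).inner (𝕜 := ℝ) h2).div_const 2)
  rw [zero_add] at h5
  have h6 : 0 ≤ ⟪Q e, e⟫ / 2 := by
    refine ge_of_tendsto h5 ?_
    filter_upwards [h1.eventually hmin, self_mem_nhdsWithin] with t ht (ht0 : 0 < t)
    simp only [Function.comp, add_sub_cancel_left, inner_smul_right, inner_zero_left, sub_zero, map_smul,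
      real_inner_smul_left, mul_zero]
    have : (G (x + t • u t) - G x - t * (t * ⟪Q (u t), u t⟫) / 2) / t ^ 2 + ⟪Q (u t), u t⟫ / 2 =
        (G (x + t • u t) - G x) / t ^ 2 := by field_simp; ring
    rw [this]
    exact div_nonneg (sub_nonneg.2 ht) (sq_nonneg t)
  linarith

theorem lap_eventually (h : SMC C ψ) {x : E} (hx0 : x ≠ 0) : ∀ᶠ y in 𝓝[C] x, lap ψ y = 0 := by
  filter_upwards [self_mem_nhdsWithin, nhdsWithin_le_nhds (isOpen_ne.mem_nhds hx0)] with y hy hy0
  exact h.minimal y hy hy0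

/-- `∇ lap ψ = - |H|² ν` on the cone -/
theorem gradient_lap (h : SMC C ψ) {x : E} (hx : x ∈ C) (hx0 : x ≠ 0) :
    gradient (lap ψ) x = (-trc (hess ψ x ∘L hess ψ x)) • gradient ψ x := by
  have hE := eik h hx hx0
  have h1 := first_order h hx hx0 ((contDiffAt_lap hE.contDiffAt).differentiableAt (by simp)).hasGradientAt
    ((lap_eventually h hx0).mono fun y hy => by rw [hy, h.minimal x hx hx0])
  rw [h1, real_inner_comm, inner_gradient, hE.dv_lap]

/-- the Jacobi equation `Δ_C β = - |H|² β` for `β = ⟪a, ν⟫` -/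
theorem trT_hess_beta (h : SMC C ψ) {x : E} (hx : x ∈ C) (hx0 : x ≠ 0) (a : E) :
    trT (gradient ψ x) (hess (fun y => ⟪a, gradient ψ y⟫) x) =
      -trc (hess ψ x ∘L hess ψ x) * ⟪a, gradient ψ x⟫ := by
  have hE := eik h hx hx0
  rw [← dv_eq, hess_dv hE.contDiffAt, trT, ← dv_lap_eq hE.contDiffAt, hE.third_grad, ← inner_gradient,
    gradient_lap h hx hx0, inner_neg_right, ← hess_symm hE.contDiffAt_two, hE.hess_grad, inner_zero_left,
    neg_zero, sub_zero, real_inner_smul_left, real_inner_comm]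

theorem hess_lap_tangent (h : SMC C ψ) {x : E} (hx : x ∈ C) (hx0 : x ≠ 0) {e : E} (he : ⟪gradient ψ x, e⟫ = 0) :
    ⟪hess (lap ψ) x e, e⟫ = -trc (hess ψ x ∘L hess ψ x) * ⟪hess ψ x e, e⟫ := by
  have hE := eik h hx hx0
  set c := -trc (hess ψ x ∘L hess ψ x) with hc
  have h1 : Jet (𝓝[C] x) x (fun y => lap ψ y - c * ψ y) 0 (hess (lap ψ) x - c • hess ψ x) :=
    (((Jet.of_contDiffAt ((contDiffAt_lap hE.contDiffAt).of_le two_le_infty)).sub
      ((Jet.of_contDiffAt hE.contDiffAt_two).const_mul c)).mono nhdsWithin_le_nhds).of_eq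
      (by rw [gradient_lap h hx hx0, sub_self]) rfl
  have h2 : ∀ᶠ y in 𝓝[C] x, lap ψ y - c * ψ y = lap ψ x - c * ψ x := by
    filter_upwards [self_mem_nhdsWithin, lap_eventually h hx0] with y hy hy'
    rw [hy', (mem_iff h y).1 hy, (mem_iff h x).1 hx, h.minimal x hx hx0]
  have h3 := second_order h hx hx0 h1 (h2.mono fun y hy => hy.ge) he
  have h4 := second_order h hx hx0 ((h1.const_mul (-1)).of_eq (smul_zero _) rfl)
    (h2.mono fun y hy => by simp only [hy, le_refl]) he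
  simp only [smul_apply, sub_apply, real_inner_smul_left, inner_sub_left] at h3 h4
  linarith

theorem inner_hess_eventually {f : E → ℝ} {x : E} (hf : ContDiffAt ℝ ∞ f x) (e : E) :
    (fun y => ⟪e, hess f y e⟫) =ᶠ[𝓝 x] dv e (dv e f) :=
  (eventually_two hf).mono fun y hy => by rw [← inner_hess hy, real_inner_comm]

theorem gradient_dv_dv {f : E → ℝ} {x : E} (hf : ContDiffAt ℝ ∞ f x) (e : E) :
    gradient (dv e (dv e f)) x = fderiv ℝ (hess f) x e e := by
  rw [gradient_dv ((contDiffAt_dv hf e).of_le two_le_infty), hess_dv hf]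

/-- Simons' identity `Δ_C H[e,e] = - |H|² H[e,e] - 2 H³[e,e]` for tangent `e` -/
theorem simons (h : SMC C ψ) {x : E} (hx : x ∈ C) (hx0 : x ≠ 0) {e : E} (he : ⟪gradient ψ x, e⟫ = 0) :
    trT (gradient ψ x) (hess (fun y => ⟪e, hess ψ y e⟫) x) =
      -trc (hess ψ x ∘L hess ψ x) * ⟪e, hess ψ x e⟫ - 2 * ⟪hess ψ x e, hess ψ x (hess ψ x e)⟫ := by
  have hE := eik h hx hx0
  have hs := contDiffAt_dv (contDiffAt_dv hE.contDiffAt e) e
  rw [(hess_congr (inner_hess_eventually hE.contDiffAt e)).eq_of_nhds, trT]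
  have h1 : trc (hess (dv e (dv e ψ)) x) = ⟪hess (lap ψ) x e, e⟫ := by
    have a1 : lap (dv e ψ) =ᶠ[𝓝 x] dv e (lap ψ) := hE.mono fun y hy => lap_dv hy.1 e
    rw [inner_hess ((contDiffAt_lap hE.contDiffAt).of_le two_le_infty), ← lap,
      lap_dv (contDiffAt_dv hE.contDiffAt e), dv, a1.fderiv_eq]
    rfl
  have h2 : (fun y => ⟪gradient ψ y, gradient (dv e (dv e ψ)) y⟫) =ᶠ[𝓝 x]
      fun y => -⟪hess ψ y e, hess ψ y e⟫ := by
    filter_upwards [hE.eventually] with y hy
    rw [gradient_dv_dv hy.contDiffAt, ← (third_symm hy.contDiffAt e _ e).2, hy.third_grad, inner_neg_left,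
      hess_symm hy.contDiffAt_two]
  have h3 := (hasFDerivAt_gradient hE.contDiffAt_two).inner ℝ (hasFDerivAt_gradient (hs.of_le two_le_infty))
  have h4 := ((hasFDerivAt_hess_apply hE.contDiffAt e).inner ℝ (hasFDerivAt_hess_apply hE.contDiffAt e)).neg
  have h5 := congrArg (fun L : E →L[ℝ] ℝ => L (gradient ψ x)) (h3.unique (h4.congr_of_eventuallyEq h2))
  simp only [ContinuousLinearMap.comp_apply, ContinuousLinearMap.prod_apply, fderivInnerCLM_apply,
    hE.hess_grad, inner_zero_left, add_zero, neg_apply, ContinuousLinearMap.flip_apply,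
    (third_symm hE.contDiffAt (gradient ψ x) e e).1, hE.third_grad, inner_neg_left, inner_neg_right] at h5
  rw [h1, hess_lap_tangent h hx hx0 he, h5, real_inner_comm e, real_inner_comm (hess ψ x e) (hess ψ x _)]
  linarith [real_inner_comm e (hess ψ x e)]

/-- a globally smooth function which agrees with `ψ` near the link -/
theorem exists_glob (h : SMC C ψ) : ∃ (f : E → ℝ) (ρ : ℝ), ContDiff ℝ ∞ f ∧ 0 < ρ ∧
    ∀ x ∈ C, ‖x‖ = 1 → ∀ y, ‖y - x‖ < ρ → f =ᶠ[𝓝 y] ψ ∧ Eik ψ y := by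
  obtain ⟨U, hU, hCU, hs, hg⟩ := h.smooth
  have hK : IsCompact (C ∩ sphere 0 1) := (isCompact_sphere 0 1).inter_left h.closed
  have hKU : C ∩ sphere 0 1 ⊆ U := fun x hx => hCU ⟨hx.1, by
    rintro rfl
    simpa using hx.2⟩
  obtain ⟨ρ, hρ, hρU⟩ := hK.exists_cthickening_subset_open hU hKU
  obtain ⟨χ, h0, h1, -⟩ := exists_contMDiffMap_zero_one_nhds_of_isClosed (n := (⊤ : ℕ∞))
    (modelWithCornersSelf ℝ E) hU.isClosed_compl (isClosed_cthickening (δ := ρ) (E := C ∩ sphere 0 1))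
    (disjoint_compl_left_iff_subset.2 hρU)
  refine ⟨fun y => χ y * ψ y, ρ, contDiff_iff_contDiffAt.2 fun y => ?_, hρ, fun x hx hx1 y hy => ?_⟩
  · by_cases hy : y ∈ U
    · exact χ.contMDiff.contDiff.contDiffAt.mul (hs.contDiffAt (hU.mem_nhds hy))
    · refine (contDiffAt_const (c := (0 : ℝ))).congr_of_eventuallyEq ?_
      filter_upwards [h0.filter_mono (nhds_le_nhdsSet hy)] with z hz
      rw [hz, zero_mul]
  · have hy' : y ∈ cthickening ρ (C ∩ sphere 0 1) :=
      mem_cthickening_of_dist_le y x ρ _ ⟨hx, mem_sphere_zero_iff_norm.2 hx1⟩ (by rw [dist_eq_norm]; exact hy.le)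
    refine ⟨(h1.filter_mono (nhds_le_nhdsSet hy')).mono fun z hz => by simp only [hz, one_mul], ?_⟩
    filter_upwards [hU.mem_nhds (hρU hy')] with z hz using ⟨hs.contDiffAt (hU.mem_nhds hz), hg z hz⟩

end smc

end Crest.Agent.R246.H1
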