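import Crest.Agent.R246.C1.Gk

/-!
# Row 246, block H1: second order jets and tangential traces
-/

set_option autoImplicit false
set_option linter.unusedSectionVars false

open MeasureTheory Metric Filter Topology Set Module Asymptotics
open scoped RealInnerProductSpace ENNReal ContDiff Real

noncomputable section

namespace Crest.Agent.R246.H1

variable {E : Type} [NormedAddCommGroup E] [InnerProductSpace ℝ E] [FiniteDimensional ℝ E]

/-- trace over `ν^⊥` (for a unit vector `ν`) -/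
def trT (ν : E) (Q : E →L[ℝ] E) : ℝ := trc Q - ⟪ν, Q ν⟫

/-- second order expansion of `f` at `x₀` along the filter `l` -/
def Jet (l : Filter E) (x₀ : E) (f : E → ℝ) (p : E) (Q : E →L[ℝ] E) : Prop :=
  (fun y => f y - f x₀ - ⟪p, y - x₀⟫ - ⟪Q (y - x₀), y - x₀⟫ / 2) =o[l] fun y => ‖y - x₀‖ ^ 2

theorem trT_add (ν : E) (A B : E →L[ℝ] E) : trT ν (A + B) = trT ν A + trT ν B := by
  simp only [trT, C1.trc_add, add_apply, inner_add_right]; ring

theorem trT_smul (ν : E) (c : ℝ) (A : E →L[ℝ] E) : trT ν (c • A) = c * trT ν A := by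
  simp only [trT, C1.trc_smul, smul_apply, inner_smul_right]; ring

theorem trT_sub (ν : E) (A B : E →L[ℝ] E) : trT ν (A - B) = trT ν A - trT ν B := by
  rw [sub_eq_add_neg, ← neg_one_smul ℝ B, trT_add, trT_smul]; ring

theorem trT_zero (ν : E) : trT ν 0 = 0 := by simp [trT, trc]

theorem trT_rk (ν a : E) : trT ν (rk a a) = ‖a‖ ^ 2 - ⟪ν, a⟫ ^ 2 := by
  rw [trT, C1.trc_rk, C1.rk_apply, inner_smul_right, real_inner_self_eq_norm_sq, real_inner_comm ν a]
  ring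

theorem trT_id {ν : E} (hν : ‖ν‖ = 1) : trT ν (ContinuousLinearMap.id ℝ E) = finrank ℝ E - 1 := by
  rw [trT, C1.trc_id, ContinuousLinearMap.id_apply, real_inner_self_eq_norm_sq, hν, one_pow]

/-- `tr (L²) ≥ 2 |L e|²` for symmetric `L` with `⟪L e, e⟫ = 0`.  Recipe: `b = stdOrthonormalBasis`,
`tr (L L) = ∑ ‖L bᵢ‖² = ∑ ⟪L bᵢ, e⟫² + ∑ ‖M bᵢ‖²` with `M v = L v - ⟪e, L v⟫ e`; the first sum is `‖L e‖²`
(Parseval, `OrthonormalBasis.sum_sq_inner_left`), the second is `≥ ‖M e‖²` (`M e = ∑ ⟪bᵢ,e⟫ M bᵢ`, Cauchy-Schwarz). -/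
theorem two_mul_le_trc {L : E →L[ℝ] E} (hL : ∀ v w, ⟪L v, w⟫ = ⟪v, L w⟫) {e : E} (he : ‖e‖ = 1)
    (h0 : ⟪L e, e⟫ = 0) : 2 * ‖L e‖ ^ 2 ≤ trc (L ∘L L) := by
  set b := stdOrthonormalBasis ℝ E
  have h1 : trc (L ∘L L) = ∑ i, ‖L (b i)‖ ^ 2 := by
    rw [trc, LinearMap.trace_eq_sum_inner _ b]
    exact Finset.sum_congr rfl fun i _ => by rw [← real_inner_self_eq_norm_sq, hL]; rfl
  have h2 : ∀ v : E, ‖L e‖ ^ 2 * ⟪v, e⟫ ^ 2 + ⟪v, L e⟫ ^ 2 ≤ ‖L e‖ ^ 2 * ‖v‖ ^ 2 := fun v => by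
    have a1 : ‖v - ⟪v, e⟫ • e‖ ^ 2 = ‖v‖ ^ 2 - ⟪v, e⟫ ^ 2 := by
      rw [norm_sub_sq_real, inner_smul_right, norm_smul, he, mul_one, Real.norm_eq_abs, sq_abs]; ring
    have a2 : ⟪v - ⟪v, e⟫ • e, L e⟫ = ⟪v, L e⟫ := by
      rw [inner_sub_left, real_inner_smul_left, ← hL e e, h0, mul_zero, sub_zero]
    have a3 := pow_le_pow_left₀ (abs_nonneg _) (abs_real_inner_le_norm (v - ⟪v, e⟫ • e) (L e)) 2
    rw [sq_abs, mul_pow, a1, a2] at a3
    linarith
  have h3 := Finset.sum_le_sum fun i (_ : i ∈ Finset.univ) => h2 (L (b i))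
  simp only [Finset.sum_add_distrib, ← Finset.mul_sum, hL, b.sum_sq_inner_right, ← h1] at h3
  have h4 := pow_le_pow_left₀ (abs_nonneg _) (abs_real_inner_le_norm e (L (L e))) 2
  rw [sq_abs, he, one_mul, ← hL, real_inner_self_eq_norm_sq] at h4
  rcases (norm_nonneg (L e)).eq_or_lt with h5 | h5
  · rw [← h5, h1]
    simpa using Finset.sum_nonneg fun i _ => sq_nonneg ‖L (b i)‖
  · exact le_of_mul_le_mul_left (by nlinarith) (pow_pos h5 2)

theorem littleO_succ {G B : Type} [NormedAddCommGroup G] [NormedSpace ℝ G] [NormedAddCommGroup B] [NormedSpace ℝ B]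
    {F : G → B} {F' : G → G →L[ℝ] B} {x₀ : G} {n : ℕ} (hF : ∀ᶠ y in 𝓝 x₀, HasFDerivAt F (F' y) y)
    (hF' : F' =o[𝓝 x₀] fun y => ‖y - x₀‖ ^ n) :
    (fun y => F y - F x₀) =o[𝓝 x₀] fun y => ‖y - x₀‖ ^ (n + 1) := by
  obtain ⟨ε, hε, h⟩ := Metric.eventually_nhds_iff_ball.1 hF
  have := (convex_ball x₀ ε).isLittleO_pow_succ (mem_ball_self hε) (fun y hy => (h y hy).hasFDerivWithinAt)
    (hF'.mono nhdsWithin_le_nhds)
  rwa [nhdsWithin_eq_nhds.2 (ball_mem_nhds x₀ hε)] at this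

/-- polarisation: `4 ⟪H v, w⟫ = q (v + w) - q (v - w)` -/
theorem norm_le_of_quad {H : E →L[ℝ] E} (hH : ∀ v w, ⟪H v, w⟫ = ⟪v, H w⟫) {k : ℝ}
    (h : ∀ v, |⟪H v, v⟫| ≤ k * ‖v‖ ^ 2) (v : E) : ‖H v‖ ≤ k * ‖v‖ := by
  have h1 : ∀ u w : E, 2 * ⟪H u, w⟫ ≤ k * (‖u‖ ^ 2 + ‖w‖ ^ 2) := fun u w => by
    have a1 := (abs_le.1 (h (u + w))).2
    have a2 := (abs_le.1 (h (u - w))).1
    simp only [map_add, map_sub, inner_add_left, inner_add_right, inner_sub_left, inner_sub_right,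
      norm_add_sq_real, norm_sub_sq_real, hH w u, real_inner_comm (H u) w] at a1 a2
    linarith
  have h2 := h1 (‖H v‖ • v) (‖v‖ • H v)
  simp only [map_smul, real_inner_smul_left, inner_smul_right, real_inner_self_eq_norm_sq, norm_smul,
    norm_norm] at h2
  rcases (norm_nonneg v).eq_or_lt with h3 | h3
  · simp [norm_eq_zero.1 h3.symm]
  rcases (norm_nonneg (H v)).eq_or_lt with h4 | h4
  · rw [← h4]
    exact le_of_mul_le_mul_right (by nlinarith [(abs_nonneg _).trans (h v)]) h3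
  · exact le_of_mul_le_mul_left (by nlinarith) (show 0 < 2 * ‖H v‖ ^ 2 * ‖v‖ by positivity)

namespace Jet
variable {l : Filter E} {x₀ : E} {f g : E → ℝ} {p p' : E} {Q Q' : E →L[ℝ] E}

theorem mono {l' : Filter E} (h : Jet l x₀ f p Q) (hl : l' ≤ l) : Jet l' x₀ f p Q := IsLittleO.mono h hl

theorem congr (h : Jet l x₀ f p Q) (h1 : f =ᶠ[l] g) (h0 : f x₀ = g x₀) : Jet l x₀ g p Q :=
  IsLittleO.congr' h (h1.mono fun y hy => by simp only [hy, h0]) EventuallyEq.rfl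

theorem of_eq (h : Jet l x₀ f p Q) (hp : p = p') (hQ : Q = Q') : Jet l x₀ f p' Q' := hp ▸ hQ ▸ h

theorem add (h : Jet l x₀ f p Q) (h' : Jet l x₀ g p' Q') :
    Jet l x₀ (fun y => f y + g y) (p + p') (Q + Q') :=
  (IsLittleO.add h h').congr_left fun y => by
    simp only [inner_add_left, add_apply]; ring

theorem const_mul (c : ℝ) (h : Jet l x₀ f p Q) : Jet l x₀ (fun y => c * f y) (c • p) (c • Q) :=
  (IsLittleO.const_mul_left h c).congr_left fun y => by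
    simp only [smul_apply, real_inner_smul_left]; ring

theorem sub (h : Jet l x₀ f p Q) (h' : Jet l x₀ g p' Q') :
    Jet l x₀ (fun y => f y - g y) (p - p') (Q - Q') :=
  (IsLittleO.sub h h').congr_left fun y => by
    simp only [inner_sub_left, sub_apply]; ring

theorem const (l : Filter E) (x₀ : E) (c : ℝ) : Jet l x₀ (fun _ => c) 0 0 :=
  (isLittleO_zero _ _).congr_left fun y => by simp

theorem inner (l : Filter E) (x₀ a : E) : Jet l x₀ (fun y => ⟪a, y⟫) a 0 :=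
  (isLittleO_zero _ _).congr_left fun y => by simp [inner_sub_right]

theorem norm_sub_sq (l : Filter E) (x₀ a : E) :
    Jet l x₀ (fun y => ‖y - a‖ ^ 2) ((2 : ℝ) • (x₀ - a)) ((2 : ℝ) • ContinuousLinearMap.id ℝ E) :=
  (isLittleO_zero _ _).congr_left fun y => by
    have e : y - a = (x₀ - a) + (y - x₀) := by abel
    beta_reduce
    rw [e, norm_add_sq_real, smul_apply, ContinuousLinearMap.id_apply, real_inner_smul_left,
      real_inner_smul_left, real_inner_self_eq_norm_sq]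
    ring

theorem norm_sq (l : Filter E) (x₀ : E) :
    Jet l x₀ (fun y => ‖y‖ ^ 2) ((2 : ℝ) • x₀) ((2 : ℝ) • ContinuousLinearMap.id ℝ E) := by
  simpa using norm_sub_sq l x₀ 0

/-- Taylor's formula.  Recipe: `R y = f y - ⟪p, y-x₀⟫ - ⟪Q(y-x₀),y-x₀⟫/2` has `fderiv R y = o(‖y-x₀‖)`
(`gradient f` is differentiable at `x₀`, `Q` is symmetric); mean value inequality on small balls
(`Convex.norm_image_sub_le_of_norm_fderiv_le` on `closedBall x₀ ‖y - x₀‖`). -/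
theorem of_contDiffAt (hf : ContDiffAt ℝ 2 f x₀) : Jet (𝓝 x₀) x₀ f (gradient f x₀) (hess f x₀) := by
  have hg : HasFDerivAt (gradient f) (hess f x₀) x₀ :=
    (((InnerProductSpace.toDual ℝ E).symm.contDiff.contDiffAt.comp x₀
      (hf.fderiv_right (m := 1) le_rfl)).differentiableAt one_ne_zero).hasFDerivAt
  have hs : ∀ v w, ⟪hess f x₀ v, w⟫ = fderiv ℝ (fderiv ℝ f) x₀ v w := fun v w => by
    have a1 := ((hf.fderiv_right (m := 1) le_rfl).differentiableAt one_ne_zero).hasFDerivAt.clm_apply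
      (hasFDerivAt_const w x₀)
    have a2 := hg.inner ℝ (hasFDerivAt_const w x₀)
    simp only [inner_gradient_left] at a2
    simpa using congrArg (fun L : E →L[ℝ] ℝ => L v) (a2.unique a1)
  have hs' : ∀ v w, ⟪hess f x₀ v, w⟫ = ⟪hess f x₀ w, v⟫ := fun v w => by
    rw [hs, hs, hf.isSymmSndFDerivAt (by simp) v w]
  have h1 := littleO_succ (n := 1) (x₀ := x₀)
    (F := fun y => f y - ⟪gradient f x₀, y - x₀⟫ - ⟪hess f x₀ (y - x₀), y - x₀⟫ / 2)
    (F' := fun y => innerSL ℝ (gradient f y - gradient f x₀ - hess f x₀ (y - x₀))) ?_ ?_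
  · exact h1.congr_left fun y => by simp only [sub_self, inner_zero_right]; ring
  · filter_upwards [hf.eventually (by simp)] with y hy
    have a1 := (hasFDerivAt_id (𝕜 := ℝ) y).sub_const x₀
    refine (((hy.differentiableAt two_ne_zero).hasFDerivAt.sub ((hasFDerivAt_const (gradient f x₀) y).inner ℝ a1)).sub
      ((((hess f x₀).hasFDerivAt.comp y a1).inner ℝ a1).mul_const (2 : ℝ)⁻¹)).congr_fderiv
      (ContinuousLinearMap.ext fun v => ?_)
    simp [inner_gradient_left, inner_sub_left, hs' v]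
    ring
  · simp only [pow_one]
    exact IsLittleO.of_norm_left (by simpa only [innerSL_apply_norm] using hg.isLittleO.norm_norm)

theorem isBigO_inner_sub (l : Filter E) (x₀ p : E) : (fun y => ⟪p, y - x₀⟫) =O[l] fun y => ‖y - x₀‖ :=
  IsBigO.of_bound ‖p‖ (Eventually.of_forall fun y => by rw [norm_norm]; exact norm_inner_le_norm _ _)

theorem isBigO_quad (l : Filter E) (x₀ : E) (Q : E →L[ℝ] E) :
    (fun y => ⟪Q (y - x₀), y - x₀⟫) =O[l] fun y => ‖y - x₀‖ ^ 2 :=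
  IsBigO.of_bound ‖Q‖ (Eventually.of_forall fun y => by
    rw [norm_pow, norm_norm, sq, ← mul_assoc]
    exact (norm_inner_le_norm _ _).trans (mul_le_mul_of_nonneg_right (Q.le_opNorm _) (norm_nonneg _)))

theorem tendsto_norm_sub (hl : l ≤ 𝓝 x₀) : Tendsto (fun y => ‖y - x₀‖) l (𝓝 0) :=
  (tendsto_norm_sub_self x₀).mono_left hl

theorem isLittleO (hl : l ≤ 𝓝 x₀) (h : Jet l x₀ f p Q) :
    (fun y => f y - f x₀ - ⟪p, y - x₀⟫) =o[l] fun y => ‖y - x₀‖ :=
  (((IsLittleO.isBigO h).add ((isBigO_quad l x₀ Q).const_mul_left (1 / 2))).congr_left fun y => by ring).trans_isLittleO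
    ((isLittleO_pow_id one_lt_two).comp_tendsto (tendsto_norm_sub hl))

theorem isBigO (hl : l ≤ 𝓝 x₀) (h : Jet l x₀ f p Q) : (fun y => f y - f x₀) =O[l] fun y => ‖y - x₀‖ := by
  exact (h.isLittleO hl).isBigO.add (isBigO_inner_sub l x₀ p) |>.congr_left fun y => by ring

theorem tendsto (hl : l ≤ 𝓝 x₀) (h : Jet l x₀ f p Q) : Tendsto f l (𝓝 (f x₀)) := by
  exact tendsto_sub_nhds_zero_iff.1 ((h.isBigO hl).trans_tendsto (tendsto_norm_sub hl))

/-- `log (1+s) = s - s²/2 + o(s²)` (`Real.abs_log_sub_add_sum_range_le`), `s = (f y - f x₀)/f x₀`,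
`Real.log_mul`. -/
theorem log (hl : l ≤ 𝓝 x₀) (h : Jet l x₀ f p Q) (h0 : f x₀ ≠ 0) :
    Jet l x₀ (fun y => Real.log (f y)) ((f x₀)⁻¹ • p) ((f x₀)⁻¹ • Q - ((f x₀) ^ 2)⁻¹ • rk p p) := by
  have h1 := littleO_succ (n := 1) (x₀ := f x₀)
    (F := fun s => Real.log s - (f x₀)⁻¹ * (s - f x₀) + ((f x₀) ^ 2)⁻¹ * (s - f x₀) ^ 2 / 2)
    (F' := fun s => ContinuousLinearMap.toSpanSingleton ℝ (s⁻¹ - (f x₀)⁻¹ - (s - f x₀) • (-(f x₀ ^ 2)⁻¹))) ?_ ?_
  · have h2 := (h1.comp_tendsto (h.tendsto hl)).trans_isBigO ((h.isBigO hl).norm_left.pow 2)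
    have h3 := (h.isLittleO hl).mul_isBigO ((h.isBigO hl).add (isBigO_inner_sub l x₀ p))
    simp only [← sq] at h3
    refine ((h2.add (IsLittleO.const_mul_left h (f x₀)⁻¹)).sub
      (h3.const_mul_left (((f x₀) ^ 2)⁻¹ / 2))).congr_left fun y => ?_
    simp only [Function.comp, sub_apply, smul_apply, C1.rk_apply, inner_sub_left, real_inner_smul_left]
    ring
  · filter_upwards [isOpen_ne.mem_nhds h0] with s hs
    have a1 := (hasDerivAt_id s).sub_const (f x₀)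
    refine (((Real.hasDerivAt_log hs).sub (a1.const_mul _)).add (((a1.pow 2).const_mul _).div_const 2)).congr_deriv ?_
    simp
    ring
  · simp only [pow_one]
    exact IsLittleO.of_norm_left (by
      simpa only [ContinuousLinearMap.norm_toSpanSingleton] using (hasDerivAt_inv h0).isLittleO.norm_norm)

/-- a purely quadratic jet times a continuous function -/
theorem mul_tendsto (h : Jet l x₀ f 0 Q) (h0 : f x₀ = 0) {a : E → ℝ} {a₀ : ℝ} (ha : Tendsto a l (𝓝 a₀)) :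
    Jet l x₀ (fun y => f y * a y) 0 (a₀ • Q) := by
  have h1 := IsLittleO.mul_isBigO h (ha.isBigO_one ℝ)
  have h2 := (isBigO_quad l x₀ Q).mul_isLittleO ((isLittleO_one_iff ℝ).2 (tendsto_sub_nhds_zero_iff.2 ha))
  simp only [mul_one] at h1 h2
  refine (h1.add (h2.const_mul_left (1 / 2))).congr_left fun y => ?_
  simp only [h0, smul_apply, real_inner_smul_left, inner_zero_left]
  ring

/-- square of a differentiable map with symmetric derivative vanishing at `x₀` -/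
theorem norm_sq_of_hasFDerivAt {V : E → E} {L : E →L[ℝ] E} (hV : HasFDerivAt V L x₀) (h0 : V x₀ = 0)
    (hL : ∀ v w, ⟪L v, w⟫ = ⟪v, L w⟫) : Jet (𝓝 x₀) x₀ (fun y => ‖V y‖ ^ 2) 0 ((2 : ℝ) • (L ∘L L)) := by
  have h1 := hV.isLittleO.norm_norm
  have h2 := (hV.isBigO_sub.add (L.isBigO_sub (𝓝 x₀) x₀)).norm_norm
  have h3 := h1.mul_isBigO h2
  simp only [← sq, h0, sub_zero, ← map_sub] at h3
  refine IsBigO.trans_isLittleO (IsBigO.of_bound' (Eventually.of_forall fun y => ?_)) h3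
  have e : ‖V y‖ ^ 2 - ‖V x₀‖ ^ 2 - ⟪(0 : E), y - x₀⟫ - ⟪((2 : ℝ) • (L ∘L L)) (y - x₀), y - x₀⟫ / 2 =
      ⟪V y - L (y - x₀), V y + L (y - x₀)⟫ := by
    rw [h0, smul_apply, real_inner_smul_left, ContinuousLinearMap.comp_apply, hL, inner_sub_left, inner_add_right,
      inner_add_right, real_inner_comm (V y) (L (y - x₀)), real_inner_self_eq_norm_sq (V y)]
    simp only [norm_zero, inner_zero_left, real_inner_self_eq_norm_sq]
    ring
  rw [e]
  exact (norm_inner_le_norm _ _).trans (le_abs_self _)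

theorem sq_of_hasGradientAt (hf : HasGradientAt f p x₀) (h0 : f x₀ = 0) :
    Jet (𝓝 x₀) x₀ (fun y => f y ^ 2) 0 ((2 : ℝ) • rk p p) := by
  have h1 := (hasGradientAt_iff_isLittleO.1 hf).norm_right
  have h2 := (h1.isBigO.add ((isBigO_inner_sub (𝓝 x₀) x₀ p).const_mul_left 2))
  have h3 := h1.mul_isBigO h2
  simp only [← sq] at h3
  refine h3.congr_left fun y => ?_
  simp only [h0, smul_apply, C1.rk_apply, real_inner_smul_left, inner_zero_left]
  ring

/-- composition with an affine map `y ↦ R y`, `R` a symmetric isometry -/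
theorem comp_symm {R : E →L[ℝ] E} (hR : ∀ v w, ⟪R v, w⟫ = ⟪v, R w⟫) (hn : ∀ v, ‖R v‖ = ‖v‖)
    (h : Jet (𝓝 (R x₀)) (R x₀) f p Q) : Jet (𝓝 x₀) x₀ (fun y => f (R y)) (R p) (R ∘L Q ∘L R) := by
  refine (IsLittleO.comp_tendsto h (R.continuous.tendsto x₀)).congr (fun y => ?_) fun y => ?_
  · simp only [Function.comp, ← map_sub, ContinuousLinearMap.comp_apply, hR]
  · simp only [Function.comp, ← map_sub, hn]

end Jet

/-- a lower support of `g` at `x₀` within `C` whose Laplacian along `ν^⊥` is at least `c` -/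
def Sup (C : Set E) (ν : E) (g : E → ℝ) (x₀ : E) (c : ℝ) : Prop :=
  ∃ (φ : E → ℝ) (p : E) (Q : E →L[ℝ] E), Jet (𝓝[C] x₀) x₀ φ p Q ∧ φ x₀ = g x₀ ∧
    (∀ᶠ y in 𝓝[C] x₀, φ y ≤ g y) ∧ c ≤ trT ν Q

/-- uniform semiconvexity on the link -/
def Semi (C : Set E) (g : E → ℝ) : Prop :=
  ∃ K ρ : ℝ, 0 < ρ ∧ ∀ x ∈ C, ‖x‖ = 1 → ∀ η > (0 : ℝ), ∃ p : E, ‖p‖ ≤ K ∧
    ∀ y ∈ C, ‖y - x‖ < ρ → g x - η + ⟪p, y - x⟫ - K * ‖y - x‖ ^ 2 ≤ g y

end Crest.Agent.R246.H1
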