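import Crest.Agent.R246.C1.Gk

/-!
# Row 246, block H1: polar coordinates for homogeneous measures, symmetry of the averaged Gaussian kernel
-/

set_option autoImplicit false
set_option linter.unusedSectionVars false

open MeasureTheory Metric Filter Topology Set Module Asymptotics
open scoped RealInnerProductSpace ENNReal ContDiff Real

noncomputable section

namespace Crest.Agent.R246.H1

variable {E : Type} [NormedAddCommGroup E] [InnerProductSpace ℝ E] [FiniteDimensional ℝ E]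
  [MeasurableSpace E] [BorelSpace E]

/-- the radial constant -/
def cR (d : ℕ) : ℝ≥0∞ := ∫⁻ τ : ℝ, ENNReal.ofReal (gk d (0 : ℝ) 1 (Real.exp τ) * Real.exp τ ^ d)

theorem pola_cont (d : ℕ) : Continuous fun τ : ℝ => gk d (0 : ℝ) 1 (Real.exp τ) * Real.exp τ ^ d := by
  unfold gk
  fun_prop

/-- positive integrand; `≤ C e^{τ}` on `τ ≤ 0`, `≤ C e^{-τ}` on `τ ≥ 0` (`Real.pow_div_factorial_le_exp`) -/
theorem cR_ne (d : ℕ) (hd : 1 ≤ d) : cR d ≠ 0 ∧ cR d ≠ ⊤ := by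
  have hp : ∀ τ : ℝ, 0 < gk d (0 : ℝ) 1 (Real.exp τ) * Real.exp τ ^ d := fun τ => by
    have := Real.pi_pos
    unfold gk
    positivity
  constructor
  · refine ((lintegral_pos_iff_support (pola_cont d).measurable.ennreal_ofReal).2 ?_).ne'
    rw [eq_univ_of_forall (s := Function.support _) fun τ => (ENNReal.ofReal_pos.2 (hp τ)).ne']
    simp
  · obtain ⟨k, rfl⟩ := Nat.exists_eq_add_of_le' hd
    have h1 := (integrableOn_rpow_mul_exp_neg_mul_sq one_half_pos (s := k)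
      (by linarith [k.cast_nonneg (α := ℝ)])).const_mul ((√(2 * π) * 1)⁻¹ ^ (k + 1))
    rw [← Real.range_exp, ← image_univ, ← IntegrableOn,
      integrableOn_image_iff_integrableOn_abs_deriv_smul MeasurableSet.univ
        (fun x _ => (Real.hasDerivAt_exp x).hasDerivWithinAt) Real.exp_injective.injOn,
      integrableOn_univ] at h1
    refine (Integrable.lintegral_lt_top (h1.congr (Eventually.of_forall fun τ => ?_))).ne
    simp only [gk, Real.rpow_natCast, sub_zero, Real.norm_eq_abs, abs_of_pos (Real.exp_pos τ),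
      smul_eq_mul]
    rw [show -Real.exp τ ^ 2 / (2 * 1 ^ 2) = -(1 / 2) * Real.exp τ ^ 2 by ring]
    ring

theorem lintegral_comp_smul {d : ℕ} {μ : Measure E}
    (hs : ∀ t : ℝ, 0 < t → ∀ S : Set E, μ ((fun y => t • y) '' S) = ENNReal.ofReal (t ^ d) * μ S)
    {t : ℝ} (ht : 0 < t) {F : E → ℝ≥0∞} (hF : Measurable F) :
    ENNReal.ofReal (t ^ d) * ∫⁻ y, F (t • y) ∂μ = ∫⁻ y, F y ∂μ := by
  have h : ENNReal.ofReal (t ^ d) • μ.map (fun y => t • y) = μ := by
    ext S hS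
    rw [Measure.smul_apply, Measure.map_apply (measurable_const_smul t) hS, smul_eq_mul, ← hs t ht,
      image_preimage_eq _ fun y => ⟨t⁻¹ • y, smul_inv_smul₀ ht.ne' y⟩]
  conv_rhs => rw [← h]
  rw [lintegral_smul_measure, lintegral_map hF (measurable_const_smul t), smul_eq_mul]

/-- polar coordinates.  Recipe: in the inner integral shift `τ ↦ τ + log ‖y‖` (`lintegral_add_right_eq_self`), swap
(`lintegral_lintegral_swap`), `lintegral_comp_smul` with `t = e^τ`, swap back, `τ ↦ log ‖z‖ - τ`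
(`lintegral_sub_left_eq_self`). -/
theorem polar {d : ℕ} {μ : Measure E} [SFinite μ] (h0 : μ {0} = 0)
    (hs : ∀ t : ℝ, 0 < t → ∀ S : Set E, μ ((fun y => t • y) '' S) = ENNReal.ofReal (t ^ d) * μ S)
    {F : E → ℝ≥0∞} (hF : Measurable F) :
    cR d * ∫⁻ y, F y ∂μ = ∫⁻ y, ENNReal.ofReal (gk d 0 1 y) *
      (∫⁻ τ : ℝ, F (Real.exp τ • ‖y‖⁻¹ • y) * ENNReal.ofReal (Real.exp τ ^ d)) ∂μ := by
  set G : ℝ → ℝ≥0∞ := fun τ => ENNReal.ofReal (gk d (0 : ℝ) 1 (Real.exp τ) * Real.exp τ ^ d)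
  have hG : Measurable G := (pola_cont d).measurable.ennreal_ofReal
  have hae : ∀ᵐ y ∂μ, y ≠ 0 := compl_mem_ae_iff.2 h0
  have hm : Measurable fun q : ℝ × E => G (Real.log ‖q.2‖ - q.1) * F q.2 :=
    (hG.comp (measurable_snd.norm.log.sub measurable_fst)).mul (hF.comp measurable_snd)
  calc cR d * ∫⁻ y, F y ∂μ = ∫⁻ y, (∫⁻ σ, G (Real.log ‖y‖ - σ) * F y) ∂μ := by
        rw [← lintegral_const_mul _ hF]
        refine lintegral_congr fun y => ?_
        rw [lintegral_mul_const (f := fun σ => G (Real.log ‖y‖ - σ)) _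
          (hG.comp (measurable_id.const_sub _)), lintegral_sub_left_eq_self G]
        rfl
    _ = ∫⁻ σ, ∫⁻ y, G (Real.log ‖y‖ - σ) * F y ∂μ := (lintegral_lintegral_swap hm.aemeasurable).symm
    _ = ∫⁻ σ, ∫⁻ y, ENNReal.ofReal (Real.exp σ ^ d) *
          (G (Real.log ‖Real.exp σ • y‖ - σ) * F (Real.exp σ • y)) ∂μ := by
        refine lintegral_congr fun σ => ?_
        rw [lintegral_const_mul' _ _ ENNReal.ofReal_ne_top]
        exact (lintegral_comp_smul hs (Real.exp_pos σ) (hm.comp measurable_prodMk_left)).symm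
    _ = ∫⁻ y, (∫⁻ σ, ENNReal.ofReal (Real.exp σ ^ d) *
          (G (Real.log ‖Real.exp σ • y‖ - σ) * F (Real.exp σ • y))) ∂μ :=
        lintegral_lintegral_swap (((measurable_fst.exp.pow_const d).ennreal_ofReal).mul
          (hm.comp (measurable_fst.prodMk (measurable_fst.exp.smul measurable_snd)))).aemeasurable
    _ = _ := by
        refine lintegral_congr_ae (hae.mono fun y hy => ?_)
        have hn := norm_pos_iff.2 hy
        beta_reduce
        rw [← lintegral_const_mul' _ _ ENNReal.ofReal_ne_top, ← lintegral_add_right_eq_self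
          (fun τ => ENNReal.ofReal (gk d 0 1 y) *
            (F (Real.exp τ • ‖y‖⁻¹ • y) * ENNReal.ofReal (Real.exp τ ^ d))) (Real.log ‖y‖)]
        refine lintegral_congr fun σ => ?_
        have hg : 0 ≤ gk d 0 1 y := by unfold gk; positivity
        rw [norm_smul, Real.norm_of_nonneg (Real.exp_pos σ).le, Real.log_mul (Real.exp_pos σ).ne' hn.ne',
          Real.log_exp, add_sub_cancel_left, Real.exp_add, Real.exp_log hn, smul_smul,
          mul_inv_cancel_right₀ hn.ne', mul_pow, ENNReal.ofReal_mul (by positivity)]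
        simp only [G, Real.exp_log hn]
        rw [show gk d (0 : ℝ) 1 ‖y‖ = gk d 0 1 y by simp [gk], ENNReal.ofReal_mul hg]
        ring

theorem polb_meas (d : ℕ) (ρ : ℝ) : Measurable fun q : E × E => gk d (‖q.1‖⁻¹ • q.1) ρ q.2 := by
  unfold gk
  fun_prop

/-- Recipe: multiply by `cR d`, apply `polar` to the inner integrals; the kernel
`κ x y = ∫⁻ τ, gk d x̂ ρ (e^τ ŷ) e^{dτ}` is symmetric since `‖t ŷ - x̂‖ = ‖t x̂ - ŷ‖` for unit vectors; Tonelli. -/
theorem symm_kernel {d : ℕ} (hd : 1 ≤ d) {μ : Measure E} [SFinite μ] (h0 : μ {0} = 0)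
    (hs : ∀ t : ℝ, 0 < t → ∀ S : Set E, μ ((fun y => t • y) '' S) = ENNReal.ofReal (t ^ d) * μ S)
    {ρ : ℝ} (hρ : 0 < ρ) {g : E → ℝ≥0∞} (hg : Measurable g) (hg0 : Hom0 g) :
    ∫⁻ x, ENNReal.ofReal (gk d 0 1 x) * (∫⁻ y, ENNReal.ofReal (gk d (‖x‖⁻¹ • x) ρ y) * g y ∂μ) ∂μ =
      ∫⁻ x, ENNReal.ofReal (gk d 0 1 x) * (∫⁻ y, ENNReal.ofReal (gk d (‖x‖⁻¹ • x) ρ y) * g x ∂μ) ∂μ := by
  have hae : ∀ᵐ y ∂μ, y ≠ 0 := compl_mem_ae_iff.2 h0
  set κ : E → E → ℝ≥0∞ := fun x y => ∫⁻ τ : ℝ, ENNReal.ofReal (gk d (‖x‖⁻¹ • x) ρ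
    (Real.exp τ • ‖y‖⁻¹ • y)) * ENNReal.ofReal (Real.exp τ ^ d) with hκ
  have hm : Measurable fun q : (E × E) × ℝ => ENNReal.ofReal (gk d (‖q.1.1‖⁻¹ • q.1.1) ρ
      (Real.exp q.2 • ‖q.1.2‖⁻¹ • q.1.2)) * ENNReal.ofReal (Real.exp q.2 ^ d) := by
    unfold gk
    fun_prop
  have hκm : Measurable fun q : E × E => κ q.1 q.2 := hm.lintegral_prod_right'
  have hsymm : ∀ x y, x ≠ 0 → y ≠ 0 → κ x y = κ y x := fun x y hx hy => lintegral_congr fun τ => by
    have e : ‖Real.exp τ • ‖y‖⁻¹ • y - ‖x‖⁻¹ • x‖ ^ 2 = ‖Real.exp τ • ‖x‖⁻¹ • x - ‖y‖⁻¹ • y‖ ^ 2 := by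
      have h1 : ‖‖x‖⁻¹ • x‖ = 1 := norm_smul_inv_norm (𝕜 := ℝ) hx
      have h2 : ‖‖y‖⁻¹ • y‖ = 1 := norm_smul_inv_norm (𝕜 := ℝ) hy
      rw [norm_sub_sq_real, norm_sub_sq_real, norm_smul, norm_smul (Real.exp τ), h1, h2,
        real_inner_smul_left,
        real_inner_smul_left _ _ (Real.exp τ), real_inner_comm]
    simp only [gk, e]
  have hk : ∀ x : E, Measurable fun y => ENNReal.ofReal (gk d (‖x‖⁻¹ • x) ρ y) := fun x =>
    ((polb_meas d ρ).comp measurable_prodMk_left).ennreal_ofReal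
  have ha : Measurable fun x : E => ENNReal.ofReal (gk d 0 1 x) := by unfold gk; fun_prop
  have key : ∀ h : E → E → ℝ≥0∞, (∀ x, Measurable (h x)) → (∀ x, Hom0 (h x)) →
      cR d * ∫⁻ x, ENNReal.ofReal (gk d 0 1 x) *
        (∫⁻ y, ENNReal.ofReal (gk d (‖x‖⁻¹ • x) ρ y) * h x y ∂μ) ∂μ =
      ∫⁻ x, ∫⁻ y, ENNReal.ofReal (gk d 0 1 x) * (ENNReal.ofReal (gk d 0 1 y) * (κ x y * h x y)) ∂μ ∂μ := by
    intro h h1 h2
    rw [← lintegral_const_mul' _ _ (cR_ne d hd).2]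
    refine lintegral_congr fun x => ?_
    rw [mul_left_comm, polar h0 hs (F := fun y => ENNReal.ofReal (gk d (‖x‖⁻¹ • x) ρ y) * h x y)
      ((hk x).mul (h1 x)), lintegral_const_mul' _ _ ENNReal.ofReal_ne_top]
    congr 1
    refine lintegral_congr_ae (hae.mono fun y hy => ?_)
    beta_reduce
    congr 1
    have hm' : Measurable fun τ : ℝ => ENNReal.ofReal (gk d (‖x‖⁻¹ • x) ρ
        (Real.exp τ • ‖y‖⁻¹ • y)) * ENNReal.ofReal (Real.exp τ ^ d) := by
      unfold gk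
      fun_prop
    simp only [hκ]
    rw [← lintegral_mul_const _ hm']
    refine lintegral_congr fun τ => ?_
    rw [h2 x _ (Real.exp_pos τ), h2 x _ (inv_pos.2 (norm_pos_iff.2 hy)), mul_right_comm]
  refine (ENNReal.mul_right_inj (cR_ne d hd).1 (cR_ne d hd).2).1 ?_
  rw [key (fun _ y => g y) (fun _ => hg) fun _ => hg0,
    key (fun x _ => g x) (fun _ => measurable_const) fun _ _ _ _ => rfl,
    lintegral_lintegral_swap ((ha.comp measurable_fst).mul ((ha.comp measurable_snd).mul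
      (hκm.mul (hg.comp measurable_snd)))).aemeasurable]
  refine lintegral_congr_ae (hae.mono fun x hx => lintegral_congr_ae (hae.mono fun y hy => ?_))
  beta_reduce
  rw [hsymm y x hy hx, mul_left_comm]

/-- real form: reduce to `g + M ≥ 0` -/
theorem integral_symm {d : ℕ} (hd : 1 ≤ d) {μ : Measure E} [SFinite μ] (h0 : μ {0} = 0)
    (hs : ∀ t : ℝ, 0 < t → ∀ S : Set E, μ ((fun y => t • y) '' S) = ENNReal.ofReal (t ^ d) * μ S)
    (hi : ∀ p r, 0 < r → Integrable (gk d p r) μ) {Θ : ℝ} (hΘ : ∀ p r, 0 < r → th d μ p r ≤ Θ)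
    {ρ : ℝ} (hρ : 0 < ρ) {g : E → ℝ} (hg : Measurable g) (hg0 : Hom0 g) {M : ℝ} (hM : ∀ y, |g y| ≤ M) :
    Integrable (fun x => gk d 0 1 x * ∫ y, gk d (‖x‖⁻¹ • x) ρ y * (g y - g x) ∂μ) μ ∧
      ∫ x, gk d 0 1 x * (∫ y, gk d (‖x‖⁻¹ • x) ρ y * (g y - g x) ∂μ) ∂μ = 0 := by
  have hp : ∀ (p : E) (r : ℝ), 0 < r → ∀ y, 0 ≤ gk d p r y := fun p r hr y => by
    unfold gk
    positivity
  have hM0 : 0 ≤ M := (abs_nonneg _).trans (hM 0)
  have key : ∀ h : E × E → ℝ, Measurable h → (∀ q, 0 ≤ h q ∧ h q ≤ 2 * M) →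
      (∀ x, Integrable (fun y => gk d (‖x‖⁻¹ • x) ρ y * h (x, y)) μ) ∧
      Integrable (fun x => gk d 0 1 x * ∫ y, gk d (‖x‖⁻¹ • x) ρ y * h (x, y) ∂μ) μ ∧
      ∫ x, gk d 0 1 x * (∫ y, gk d (‖x‖⁻¹ • x) ρ y * h (x, y) ∂μ) ∂μ =
        (∫⁻ x, ENNReal.ofReal (gk d 0 1 x) *
          (∫⁻ y, ENNReal.ofReal (gk d (‖x‖⁻¹ • x) ρ y) * ENNReal.ofReal (h (x, y)) ∂μ) ∂μ).toReal := by
    intro h hm hb
    have h1 : ∀ x, Integrable (fun y => gk d (‖x‖⁻¹ • x) ρ y * h (x, y)) μ := fun x =>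
      (hi _ ρ hρ).mul_bdd (c := 2 * M) (hm.comp measurable_prodMk_left).aestronglyMeasurable
        (Eventually.of_forall fun y => by rw [Real.norm_of_nonneg (hb _).1]; exact (hb _).2)
    have h2 : ∀ x, 0 ≤ ∫ y, gk d (‖x‖⁻¹ • x) ρ y * h (x, y) ∂μ := fun x =>
      integral_nonneg fun y => mul_nonneg (hp _ ρ hρ y) (hb _).1
    have h3 : Integrable (fun x => gk d 0 1 x * ∫ y, gk d (‖x‖⁻¹ • x) ρ y * h (x, y) ∂μ) μ :=
      (hi 0 1 one_pos).mul_bdd (c := Θ * (2 * M))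
        (((polb_meas d ρ).mul hm).stronglyMeasurable.integral_prod_right' (ν := μ)).aestronglyMeasurable
        (Eventually.of_forall fun x => by
          rw [Real.norm_of_nonneg (h2 x)]
          refine (integral_mono (h1 x) ((hi _ ρ hρ).mul_const (2 * M)) fun y =>
            mul_le_mul_of_nonneg_left (hb _).2 (hp _ ρ hρ y)).trans ?_
          rw [integral_mul_const]
          exact mul_le_mul_of_nonneg_right (hΘ _ ρ hρ) (by positivity))
    refine ⟨h1, h3, ?_⟩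
    rw [integral_eq_lintegral_of_nonneg_ae
      (Eventually.of_forall fun x => mul_nonneg (hp 0 1 one_pos x) (h2 x)) h3.aestronglyMeasurable]
    congr 1
    refine lintegral_congr fun x => ?_
    rw [ENNReal.ofReal_mul (hp 0 1 one_pos x), ofReal_integral_eq_lintegral_ofReal (h1 x)
      (Eventually.of_forall fun y => mul_nonneg (hp _ ρ hρ y) (hb _).1)]
    simp only [ENNReal.ofReal_mul (hp _ ρ hρ _)]
  have hb : ∀ y, 0 ≤ g y + M ∧ g y + M ≤ 2 * M := fun y => by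
    have := abs_le.1 (hM y)
    constructor <;> linarith
  obtain ⟨a1, a2, a3⟩ := key (fun q => g q.2 + M) ((hg.comp measurable_snd).add_const M) fun q => hb _
  obtain ⟨b1, b2, b3⟩ := key (fun q => g q.1 + M) ((hg.comp measurable_fst).add_const M) fun q => hb _
  have e : (fun x => gk d 0 1 x * ∫ y, gk d (‖x‖⁻¹ • x) ρ y * (g y - g x) ∂μ) = fun x =>
      gk d 0 1 x * (∫ y, gk d (‖x‖⁻¹ • x) ρ y * (g y + M) ∂μ) -
        gk d 0 1 x * ∫ y, gk d (‖x‖⁻¹ • x) ρ y * (g x + M) ∂μ := funext fun x => by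
    rw [← mul_sub, ← integral_sub (a1 x) (b1 x)]
    congr 2
    funext y
    ring
  rw [e]
  refine ⟨a2.sub b2, ?_⟩
  rw [integral_sub a2 b2, a3, b3, sub_eq_zero]
  exact congrArg _ (symm_kernel hd h0 hs hρ (g := fun y => ENNReal.ofReal (g y + M))
    (hg.add_const M).ennreal_ofReal fun t ht y => by simp only [hg0 t ht y])

end Crest.Agent.R246.H1
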